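import Mathlib.Analysis.InnerProductSpace.Projection.Basic
import Mathlib.Analysis.InnerProductSpace.Projection.FiniteDimensional
import Mathlib.Tactic

/-! P220: row R3 (helper369). -/

namespace Vale.Agent.P220.R2.H369

variable {V : Type} [NormedAddCommGroup V] [InnerProductSpace ℝ V]

/-- the moment form -/
def MM (x y p r v w : V) : ℝ :=
  inner ℝ v x * inner ℝ w p - inner ℝ w x * inner ℝ v p +
    (inner ℝ v y * inner ℝ w r - inner ℝ w y * inner ℝ v r)

theorem J_left {J : V ≃ₗᵢ[ℝ] V} (hJ : ∀ x, J (J x) = -x) (x y : V) :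
    (inner ℝ (J x) y : ℝ) = -inner ℝ x (J y) := by
  rw [← J.inner_map_map (J x) y, hJ, inner_neg_left]

theorem J_self {J : V ≃ₗᵢ[ℝ] V} (hJ : ∀ x, J (J x) = -x) (x : V) :
    (inner ℝ (J x) x : ℝ) = 0 := by
  have h := J_left hJ x x
  rw [real_inner_comm x (J x)] at h
  have h2 := real_inner_comm x (J x)
  linarith

theorem MM_smul_right (x y p r v w : V) (c : ℝ) : MM x y p r v (c • w) = c * MM x y p r v w := by
  simp only [MM, inner_smul_left, RCLike.conj_to_real]; ring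

theorem MM_smul_left (x y p r v w : V) (c : ℝ) : MM x y p r (c • v) w = c * MM x y p r v w := by
  simp only [MM, inner_smul_left, RCLike.conj_to_real]; ring

theorem MM_add_right (x y p r v w w' : V) :
    MM x y p r v (w + w') = MM x y p r v w + MM x y p r v w' := by
  simp only [MM, inner_add_left]; ring

theorem MM_neg_right (x y p r v w : V) : MM x y p r v (-w) = -MM x y p r v w := by
  simp only [MM, inner_neg_left]; ring

theorem MM_swap (x y p r v w : V) : MM x y p r w v = -MM x y p r v w := by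
  simp only [MM]; ring

theorem S_unit {J : V ≃ₗᵢ[ℝ] V} (hJ : ∀ x, J (J x) = -x) {x y p r : V}
    (m1 : ∀ v w : V, ‖v‖ = 1 → ‖w‖ = 1 → inner ℝ v w = (0 : ℝ) → inner ℝ v (J w) = (0 : ℝ) →
      MM x y p r v w + MM x y p r (J v) (J w) = 0)
    (m2 : ∀ v : V, ‖v‖ = 1 → MM x y p r v (J v) = 0) (v w : V) (hv : ‖v‖ = 1) :
    MM x y p r v w + MM x y p r (J v) (J w) = 0 := by
  have hvv : (inner ℝ v v : ℝ) = 1 := by rw [real_inner_self_eq_norm_sq, hv]; norm_num
  set a : ℝ := inner ℝ v w with ha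
  set b : ℝ := inner ℝ (J v) w with hb
  set w' : V := w - a • v - b • J v with hw'
  have e1 : w = a • v + b • J v + w' := by rw [hw']; abel
  have h1 : (inner ℝ v w' : ℝ) = 0 := by
    have : (inner ℝ v (J v) : ℝ) = 0 := by rw [real_inner_comm]; exact J_self hJ v
    rw [hw', inner_sub_right, inner_sub_right, inner_smul_right, inner_smul_right, hvv, this]
    ring
  have h2 : (inner ℝ (J v) w' : ℝ) = 0 := by
    rw [hw', inner_sub_right, inner_sub_right, inner_smul_right, inner_smul_right, J_self hJ,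
      J.inner_map_map, hvv]
    ring
  have h3 : MM x y p r v w' + MM x y p r (J v) (J w') = 0 := by
    by_cases h0 : w' = 0
    · rw [h0, map_zero]; simp [MM]
    · have hn : ‖w'‖ ≠ 0 := norm_ne_zero_iff.2 h0
      have h4 := m1 v (‖w'‖⁻¹ • w') hv (by rw [norm_smul, norm_inv, norm_norm,
        inv_mul_cancel₀ hn]) (by rw [inner_smul_right, h1, mul_zero])
        (by
          rw [map_smul, inner_smul_right]
          have := J_left hJ v w'
          rw [h2] at this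
          have h5 : (inner ℝ v (J w') : ℝ) = 0 := by linarith
          rw [h5, mul_zero])
      rw [map_smul, MM_smul_right, MM_smul_right, ← mul_add] at h4
      exact (mul_eq_zero.1 h4).resolve_left (inv_ne_zero hn)
  have h4 := m2 v hv
  have h5 : MM x y p r (J v) (J (J v)) = MM x y p r v (J v) := by
    rw [hJ, MM_neg_right, MM_swap, neg_neg]
  have h6 : ∀ z : V, MM x y p r z z = 0 := fun z => by simp only [MM]; ring
  rw [e1, map_add, map_add, map_smul, map_smul, MM_add_right, MM_add_right, MM_add_right,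
    MM_add_right, MM_smul_right, MM_smul_right, MM_smul_right, MM_smul_right, h5, h4, h6, h6]
  linarith

theorem S_all {J : V ≃ₗᵢ[ℝ] V} (hJ : ∀ x, J (J x) = -x) {x y p r : V}
    (m1 : ∀ v w : V, ‖v‖ = 1 → ‖w‖ = 1 → inner ℝ v w = (0 : ℝ) → inner ℝ v (J w) = (0 : ℝ) →
      MM x y p r v w + MM x y p r (J v) (J w) = 0)
    (m2 : ∀ v : V, ‖v‖ = 1 → MM x y p r v (J v) = 0) (v w : V) :
    MM x y p r v w + MM x y p r (J v) (J w) = 0 := by
  by_cases h0 : v = 0
  · rw [h0, map_zero]; simp [MM]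
  have hn : ‖v‖ ≠ 0 := norm_ne_zero_iff.2 h0
  have h4 := S_unit hJ m1 m2 (‖v‖⁻¹ • v) w (by rw [norm_smul, norm_inv, norm_norm,
    inv_mul_cancel₀ hn])
  rw [map_smul, MM_smul_left, MM_smul_left, ← mul_add] at h4
  exact (mul_eq_zero.1 h4).resolve_left (inv_ne_zero hn)

/-- the equation from pairing with `x` -/
theorem eq_x {J : V ≃ₗᵢ[ℝ] V} (hJ : ∀ x, J (J x) = -x) {x y p r : V}
    (h1 : inner ℝ x y = (0 : ℝ)) (h2 : inner ℝ x (J y) = (0 : ℝ))
    (hS : ∀ v w, MM x y p r v w + MM x y p r (J v) (J w) = 0) :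
    (inner ℝ x x : ℝ) • p = (inner ℝ x p : ℝ) • x - (inner ℝ (J x) p : ℝ) • J x +
      (inner ℝ x r : ℝ) • y - (inner ℝ (J x) r : ℝ) • J y := by
  refine ext_inner_left ℝ fun v => ?_
  have h := hS v x
  simp only [MM] at h
  have a1 := J_left hJ v x
  have a2 := J_left hJ v y
  have a3 := J_left hJ x y
  rw [h2] at a3
  rw [h1, J_self hJ, a3, a1, a2] at h
  simp only [inner_add_right, inner_sub_right, inner_smul_right]
  linarith

theorem exists_unit [FiniteDimensional ℝ V] (h4 : 4 ≤ Module.finrank ℝ V) (a b : V) :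
    ∃ u : V, ‖u‖ = 1 ∧ inner ℝ a u = (0 : ℝ) ∧ inner ℝ b u = (0 : ℝ) := by
  classical
  set W : Submodule ℝ V := Submodule.span ℝ (({a, b} : Finset V) : Set V) with hW
  have h1 : Module.finrank ℝ W ≤ 2 :=
    (finrank_span_finset_le_card (R := ℝ) ({a, b} : Finset V)).trans Finset.card_le_two
  have h2 := Submodule.finrank_add_finrank_orthogonal W
  have h3 : Wᗮ ≠ ⊥ := by
    intro h
    rw [h, finrank_bot] at h2
    omega
  obtain ⟨u, hu, hu0⟩ := Submodule.exists_mem_ne_zero_of_ne_bot h3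
  have ha : a ∈ W := Submodule.subset_span (by simp)
  have hb : b ∈ W := Submodule.subset_span (by simp)
  have e1 := (Submodule.mem_orthogonal W u).1 hu a ha
  have e2 := (Submodule.mem_orthogonal W u).1 hu b hb
  have hn : ‖u‖ ≠ 0 := norm_ne_zero_iff.2 hu0
  refine ⟨‖u‖⁻¹ • u, by rw [norm_smul, norm_inv, norm_norm, inv_mul_cancel₀ hn], ?_, ?_⟩
  · rw [inner_smul_right, e1, mul_zero]
  · rw [inner_smul_right, e2, mul_zero]

/-- a unit vector on the line of `p`, or any unit vector, orthogonal to `a`, `b` -/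
theorem exists_dir [FiniteDimensional ℝ V] (h4 : 4 ≤ Module.finrank ℝ V) (a b p : V)
    (ha : inner ℝ a p = (0 : ℝ)) (hb : inner ℝ b p = (0 : ℝ)) :
    ∃ u : V, ‖u‖ = 1 ∧ inner ℝ a u = (0 : ℝ) ∧ inner ℝ b u = (0 : ℝ) ∧ ∃ t : ℝ, p = t • u := by
  by_cases h0 : p = 0
  · obtain ⟨u, h1, h2, h3⟩ := exists_unit h4 a b
    exact ⟨u, h1, h2, h3, 0, by rw [h0, zero_smul]⟩
  · have hn : ‖p‖ ≠ 0 := norm_ne_zero_iff.2 h0
    refine ⟨‖p‖⁻¹ • p, by rw [norm_smul, norm_inv, norm_norm, inv_mul_cancel₀ hn], ?_, ?_,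
      ‖p‖, by rw [smul_smul, mul_inv_cancel₀ hn, one_smul]⟩
    · rw [inner_smul_right, ha, mul_zero]
    · rw [inner_smul_right, hb, mul_zero]

theorem row_MJ [FiniteDimensional ℝ V]
    {J : V ≃ₗᵢ[ℝ] V} (hJ : ∀ x, J (J x) = -x) (h4 : 4 ≤ Module.finrank ℝ V) {x y p r : V}
    (hn : ‖x‖ ^ 2 + ‖y‖ ^ 2 = 1) (h1 : inner ℝ x y = (0 : ℝ)) (h2 : inner ℝ x (J y) = (0 : ℝ))
    (_t1 : (inner ℝ x p + inner ℝ y r : ℝ) = 0) (t2 : (inner ℝ x r + inner ℝ p y : ℝ) = 0)
    (t3 : (inner ℝ x (J r) + inner ℝ p (J y) : ℝ) = 0)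
    (m1 : ∀ v w : V, ‖v‖ = 1 → ‖w‖ = 1 → inner ℝ v w = (0 : ℝ) → inner ℝ v (J w) = (0 : ℝ) →
      MM x y p r v w + MM x y p r (J v) (J w) = 0)
    (m2 : ∀ v : V, ‖v‖ = 1 → MM x y p r v (J v) = 0) :
    ∃ e u : V, ‖e‖ = 1 ∧ ‖u‖ = 1 ∧ inner ℝ e u = (0 : ℝ) ∧ inner ℝ e (J u) = (0 : ℝ) ∧
      (∃ s t : ℝ, x = s • e ∧ p = t • e) ∧ ∃ s t : ℝ, y = s • u ∧ r = t • u := by
  have hS := S_all hJ m1 m2
  have hyx : (inner ℝ y x : ℝ) = 0 := by rw [real_inner_comm]; exact h1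
  have hJyx : (inner ℝ (J y) x : ℝ) = 0 := by rw [real_inner_comm]; exact h2
  have hyJx : (inner ℝ y (J x) : ℝ) = 0 := by
    have := J_left hJ y x
    rw [hJyx] at this; linarith
  have hJxy : (inner ℝ (J x) y : ℝ) = 0 := by rw [real_inner_comm]; exact hyJx
  have hsym : ∀ v w, MM y x r p v w = MM x y p r v w := fun v w => by simp only [MM]; ring
  have E1 := eq_x hJ h1 h2 hS
  have E2 := eq_x (x := y) (y := x) (p := r) (r := p) hJ hyx hyJx
    (fun v w => by rw [hsym, hsym]; exact hS v w)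
  have hxx : (inner ℝ x x : ℝ) = ‖x‖ ^ 2 := real_inner_self_eq_norm_sq x
  have hyy : (inner ℝ y y : ℝ) = ‖y‖ ^ 2 := real_inner_self_eq_norm_sq y
  have hxJx : (inner ℝ x (J x) : ℝ) = 0 := by rw [real_inner_comm]; exact J_self hJ x
  have hyJy : (inner ℝ y (J y) : ℝ) = 0 := by rw [real_inner_comm]; exact J_self hJ y
  -- pair the first equation with `J x`, `y`, `J y`
  have f1 := congrArg (fun z => (inner ℝ (J x) z : ℝ)) E1
  have f2 := congrArg (fun z => (inner ℝ y z : ℝ)) E1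
  have f3 := congrArg (fun z => (inner ℝ (J y) z : ℝ)) E1
  have g1 := congrArg (fun z => (inner ℝ (J y) z : ℝ)) E2
  simp only [inner_add_right, inner_sub_right, inner_smul_right, J.inner_map_map, J_self hJ,
    h1, hJxy, hyx, hyJx, hyJy, hJyx, mul_zero, sub_zero, zero_sub,
    add_zero, zero_add] at f1 f2 f3 g1
  have hpy : (inner ℝ p y : ℝ) = inner ℝ y p := real_inner_comm _ _
  have hpJy : (inner ℝ p (J y) : ℝ) = inner ℝ (J y) p := real_inner_comm _ _
  have hxJr : (inner ℝ x (J r) : ℝ) = -inner ℝ (J x) r := by rw [J_left hJ]; ring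
  rw [hpy] at t2
  rw [hpJy, hxJr] at t3
  rw [hxx] at f1 f2 f3
  rw [hyy] at f2 f3 g1
  -- the vanishing products
  have k1 : ‖x‖ ^ 2 * (inner ℝ (J x) p : ℝ) = 0 := by linarith
  have k2 : (inner ℝ x r : ℝ) = 0 := by
    have : (‖x‖ ^ 2 + ‖y‖ ^ 2) * (inner ℝ x r : ℝ) = 0 := by
      have h5 : (inner ℝ y p : ℝ) = -inner ℝ x r := by linarith
      rw [h5] at f2
      linarith
    rwa [hn, one_mul] at this
  have k3 : (inner ℝ y p : ℝ) = 0 := by linarith
  have k4 : (inner ℝ (J x) r : ℝ) = 0 := by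
    have : (‖x‖ ^ 2 + ‖y‖ ^ 2) * (inner ℝ (J x) r : ℝ) = 0 := by
      have h5 : (inner ℝ (J y) p : ℝ) = inner ℝ (J x) r := by linarith
      rw [h5] at f3
      linarith
    rwa [hn, one_mul] at this
  have k5 : (inner ℝ (J y) p : ℝ) = 0 := by linarith
  have k6 : ‖y‖ ^ 2 * (inner ℝ (J y) r : ℝ) = 0 := by linarith
  rw [hxx, k2, k4, zero_smul, zero_smul, add_zero, sub_zero] at E1
  rw [hyy, k3, k5, zero_smul, zero_smul, add_zero, sub_zero] at E2
  have L : ∀ {z w : V}, z ≠ 0 → ‖z‖ ^ 2 * (inner ℝ (J z) w : ℝ) = 0 →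
      (‖z‖ ^ 2) • w = (inner ℝ z w : ℝ) • z - (inner ℝ (J z) w : ℝ) • J z →
      ‖(‖z‖⁻¹ • z)‖ = 1 ∧ ∃ s t : ℝ, z = s • (‖z‖⁻¹ • z) ∧ w = t • (‖z‖⁻¹ • z) := by
    intro z w hz hk hE
    have hn0 : ‖z‖ ≠ 0 := norm_ne_zero_iff.2 hz
    have hk' : (inner ℝ (J z) w : ℝ) = 0 :=
      (mul_eq_zero.1 hk).resolve_left (pow_ne_zero 2 hn0)
    rw [hk', zero_smul, sub_zero] at hE
    refine ⟨by rw [norm_smul, norm_inv, norm_norm, inv_mul_cancel₀ hn0], ‖z‖,
      (‖z‖ ^ 2)⁻¹ * (inner ℝ z w : ℝ) * ‖z‖, by rw [smul_smul, mul_inv_cancel₀ hn0, one_smul],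
      ?_⟩
    calc w = (‖z‖ ^ 2)⁻¹ • ((‖z‖ ^ 2) • w) := by
          rw [smul_smul, inv_mul_cancel₀ (pow_ne_zero 2 hn0), one_smul]
      _ = _ := by
          rw [hE, smul_smul, smul_smul]
          congr 1
          field_simp
  by_cases hx0 : x = 0
  · have hy0 : y ≠ 0 := by
      rintro rfl
      rw [hx0] at hn; simp at hn
    obtain ⟨e1, s, t, e2, e3⟩ := L hy0 k6 E2
    obtain ⟨e, u1, u2, u3, tt, u4⟩ := exists_dir h4 y (J y) p k3 k5
    refine ⟨e, ‖y‖⁻¹ • y, u1, e1, ?_, ?_, ⟨0, tt, by rw [hx0, zero_smul], u4⟩, s, t, e2, e3⟩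
    · rw [inner_smul_right, real_inner_comm, u2, mul_zero]
    · rw [map_smul, inner_smul_right, real_inner_comm, u3, mul_zero]
  · obtain ⟨e1, s, t, e2, e3⟩ := L hx0 k1 E1
    by_cases hy0 : y = 0
    · obtain ⟨u, u1, u2, u3, tt, u4⟩ := exists_dir h4 x (J x) r k2 k4
      refine ⟨‖x‖⁻¹ • x, u, e1, u1, ?_, ?_, ⟨s, t, e2, e3⟩, 0, tt, by rw [hy0, zero_smul], u4⟩
      · rw [inner_smul_left, u2, mul_zero]
      · rw [inner_smul_left]
        have := J_left hJ x u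
        rw [u3] at this
        have h6 : (inner ℝ x (J u) : ℝ) = 0 := by linarith
        rw [h6, mul_zero]
    · obtain ⟨e1', s', t', e2', e3'⟩ := L hy0 k6 E2
      refine ⟨‖x‖⁻¹ • x, ‖y‖⁻¹ • y, e1, e1', ?_, ?_, ⟨s, t, e2, e3⟩, s', t', e2', e3'⟩
      · rw [inner_smul_left, inner_smul_right, h1, mul_zero, mul_zero]
      · rw [map_smul, inner_smul_left, inner_smul_right, h2, mul_zero, mul_zero]

end Vale.Agent.P220.R2.H369
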